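import Vale.Agent.P181.H303.Spec

set_option autoImplicit false

namespace Vale.Agent.P181.H225

open Finset Vale.Agent.P181.H303

section Ops

variable {a J : ℕ}

/-- States. -/
abbrev St (a J : ℕ) := Fin a → Option (Fin J)

/-- Iterated weighted sums. -/
def TO (w : Fin a → Fin J → ℂ) : List (Fin a) → (St a J → ℂ) → St a J → ℂ
  | [], Φ, o => Φ o
  | c :: l, Φ, o => ∑ j, w c j * TO w l Φ (Function.update o c (some j))

theorem TO_sum (w : Fin a → Fin J → ℂ) {κ : Type} (s : Finset κ) (Φ : κ → St a J → ℂ)
    (l : List (Fin a)) (o : St a J) :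
    TO w l (fun o => ∑ k ∈ s, Φ k o) o = ∑ k ∈ s, TO w l (Φ k) o := by
  induction l generalizing o with
  | nil => rfl
  | cons c l ih =>
    simp only [TO, ih, Finset.mul_sum]
    rw [Finset.sum_comm]

theorem TO_zero (w : Fin a → Fin J → ℂ) (Θ : St a J → ℂ) (l : List (Fin a)) :
    ∀ o : St a J, (∀ o' : St a J, (∀ c ∈ l, o' c ≠ none) → (∀ c, c ∉ l → o' c = o c) → Θ o' = 0) →
      TO w l Θ o = 0 := by
  induction l with
  | nil =>
    intro o h
    exact h o (by simp) (by simp)
  | cons c l ih =>
    intro o h
    simp only [TO]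
    refine Finset.sum_eq_zero fun j _ => ?_
    rw [ih (Function.update o c (some j)) ?_, mul_zero]
    intro o' h1 h2
    refine h o' ?_ ?_
    · intro c' hc'
      by_cases hl : c' ∈ l
      · exact h1 c' hl
      · have : c' = c := by
          rcases List.mem_cons.1 hc' with h | h
          · exact h
          · exact absurd h hl
        rw [h2 c' hl, this, Function.update_self]
        simp
    · intro c' hc'
      have h3 : c' ≠ c := fun h => hc' (by simp [h])
      have h4 : c' ∉ l := fun h => hc' (by simp [h])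
      rw [h2 c' h4, Function.update_of_ne h3]

/-- The sums over the classes in `D` replaced by the state `none`. -/
def TP (w : Fin a → Fin J → ℂ) (D : Fin a → Prop) [DecidablePred D] :
    List (Fin a) → (St a J → ℂ) → St a J → ℂ
  | [], Φ, o => Φ o
  | c :: l, Φ, o => if D c then TP w D l Φ (Function.update o c none) else
      ∑ j, w c j * TP w D l Φ (Function.update o c (some j))

variable (w : Fin a → Fin J → ℂ) (D : Fin a → Prop) [DecidablePred D] (Φ : St a J → ℂ)

theorem TP_Q (hQ : ∀ c, D c → ∀ o, ∑ j, w c j * Φ (Function.update o c (some j)) =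
    Φ (Function.update o c none)) (l : List (Fin a)) : ∀ c, c ∉ l → D c → ∀ o,
    ∑ j, w c j * TP w D l Φ (Function.update o c (some j)) =
      TP w D l Φ (Function.update o c none) := by
  induction l with
  | nil =>
    intro c _ hc o
    exact hQ c hc o
  | cons c' l ih =>
    intro c hc hD o
    have h3 : c ≠ c' := fun h => hc (by simp [h])
    have h4 : c ∉ l := fun h => hc (by simp [h])
    by_cases hD' : D c'
    · simp only [TP, if_pos hD']
      rw [Function.update_comm h3, ← ih c h4 hD (Function.update o c' none)]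
      refine Finset.sum_congr rfl fun j _ => ?_
      rw [Function.update_comm h3]
    · simp only [TP, if_neg hD', Finset.mul_sum]
      rw [Finset.sum_comm]
      refine Finset.sum_congr rfl fun j' _ => ?_
      rw [Function.update_comm h3, ← ih c h4 hD (Function.update o c' (some j')),
        Finset.mul_sum]
      refine Finset.sum_congr rfl fun j _ => ?_
      rw [Function.update_comm h3]
      ring

theorem TO_eq_TP (hQ : ∀ c, D c → ∀ o, ∑ j, w c j * Φ (Function.update o c (some j)) =
    Φ (Function.update o c none)) (l : List (Fin a)) (hl : l.Nodup) : ∀ o,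
    TO w l Φ o = TP w D l Φ o := by
  induction l with
  | nil => intro o; rfl
  | cons c l ih =>
    intro o
    have h1 := (List.nodup_cons.1 hl)
    simp only [TO, ih h1.2]
    by_cases hD : D c
    · rw [TP, if_pos hD]
      exact TP_Q w D Φ hQ l c h1.1 hD o
    · rw [TP, if_neg hD]

theorem TP_bound {B M : ℝ} (hB : 0 ≤ B) (hM : 0 ≤ M) (hw : ∀ c, ∑ j, ‖w c j‖ ≤ B)
    (l : List (Fin a)) : ∀ o : St a J,
    (∀ o' : St a J, (∀ c ∈ l, (D c → o' c = none) ∧ (¬ D c → o' c ≠ none)) →
      (∀ c, c ∉ l → o' c = o c) → ‖Φ o'‖ ≤ M) →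
      ‖TP w D l Φ o‖ ≤ B ^ (l.filter (fun c => ¬ D c)).length * M := by
  induction l with
  | nil =>
    intro o h
    simpa [TP] using h o (by simp) (by simp)
  | cons c l ih =>
    intro o h
    by_cases hD : D c
    · rw [TP, if_pos hD, List.filter_cons_of_neg (by simpa using hD)]
      refine ih _ fun o' h1 h2 => h o' ?_ ?_
      · intro c' hc'
        by_cases hl : c' ∈ l
        · exact h1 c' hl
        · have : c' = c := by
            rcases List.mem_cons.1 hc' with h | h
            · exact h
            · exact absurd h hl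
          subst this
          refine ⟨fun _ => ?_, fun h => absurd hD h⟩
          rw [h2 c' hl, Function.update_self]
      · intro c' hc'
        have h3 : c' ≠ c := fun h => hc' (by simp [h])
        have h4 : c' ∉ l := fun h => hc' (by simp [h])
        rw [h2 c' h4, Function.update_of_ne h3]
    · rw [TP, if_neg hD, List.filter_cons_of_pos (by simpa using hD), List.length_cons]
      have hM' : 0 ≤ B ^ (l.filter (fun c => ¬ D c)).length * M := by positivity
      calc ‖∑ j, w c j * TP w D l Φ (Function.update o c (some j))‖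
          ≤ ∑ j, ‖w c j‖ * (B ^ (l.filter (fun c => ¬ D c)).length * M) := by
            refine (norm_sum_le _ _).trans (Finset.sum_le_sum fun j _ => ?_)
            rw [norm_mul]
            refine mul_le_mul_of_nonneg_left ?_ (norm_nonneg _)
            refine ih _ fun o' h1 h2 => h o' ?_ ?_
            · intro c' hc'
              by_cases hl : c' ∈ l
              · exact h1 c' hl
              · have : c' = c := by
                  rcases List.mem_cons.1 hc' with h | h
                  · exact h
                  · exact absurd h hl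
                subst this
                refine ⟨fun h => absurd h hD, fun _ => ?_⟩
                rw [h2 c' hl, Function.update_self]
                simp
            · intro c' hc'
              have h3 : c' ≠ c := fun h => hc' (by simp [h])
              have h4 : c' ∉ l := fun h => hc' (by simp [h])
              rw [h2 c' h4, Function.update_of_ne h3]
        _ = (∑ j, ‖w c j‖) * (B ^ (l.filter (fun c => ¬ D c)).length * M) := by
            rw [Finset.sum_mul]
        _ ≤ B * (B ^ (l.filter (fun c => ¬ D c)).length * M) :=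
            mul_le_mul_of_nonneg_right (hw c) hM'
        _ = _ := by rw [pow_succ]; ring

end Ops

section Count

variable {a q : ℕ}

/-- Classes which occur only in constant rows. -/
def DD (z : Fin q) (K : Fin a → Fin q → Fin a) (c : Fin a) : Prop :=
  ∀ r, (∃ l, K r l = c) → ∀ l, K r l = K r z

theorem card_R {z : Fin q} {K : Fin a → Fin q → Fin a} {c : Fin a} (hD : DD z K c) {m : ℕ}
    (hK : (univ.filter (fun p : Fin a × Fin q => K p.1 p.2 = c)).card = q * m) :
    (univ.filter (fun r => K r z = c)).card = m := by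
  have hq : 0 < q := z.pos
  have h1 : (univ.filter (fun p : Fin a × Fin q => K p.1 p.2 = c)) =
      (univ.filter (fun r => K r z = c)) ×ˢ (univ : Finset (Fin q)) := by
    ext ⟨r, l⟩
    simp only [mem_filter, mem_univ, true_and, mem_product, and_true]
    constructor
    · intro h
      rw [← hD r ⟨l, h⟩ l]
      exact h
    · intro h
      rw [hD r ⟨z, h⟩ l]
      exact h
  rw [h1, card_product, card_univ, Fintype.card_fin, mul_comm] at hK
  exact Nat.eq_of_mul_eq_mul_left hq hK

theorem exists_rho (z : Fin q) (K : Fin a → Fin q → Fin a) (cl : Fin a → Fin a)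
    (hK : ∀ c, (univ.filter (fun p : Fin a × Fin q => K p.1 p.2 = c)).card =
      q * (univ.filter (fun i => cl i = c)).card) :
    ∃ ρ : Fin a → Fin a, ∀ c, DD z K c →
      Set.BijOn ρ (univ.filter (fun r => K r z = c) : Finset (Fin a))
        (univ.filter (fun i => cl i = c) : Finset (Fin a)) := by
  classical
  have h1 : ∀ c, DD z K c → Nonempty
      ((univ.filter (fun r => K r z = c) : Finset (Fin a)) ≃
        (univ.filter (fun i => cl i = c) : Finset (Fin a))) := fun c hc =>
    ⟨Finset.equivOfCardEq (card_R hc (hK c))⟩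
  refine ⟨fun r => if h : DD z K (K r z) then
    ((h1 _ h).some ⟨r, by simp⟩ : (univ.filter (fun i => cl i = K r z) : Finset (Fin a))).1
      else r, ?_⟩
  intro c hc
  have key : ∀ r (hr : K r z = c), (if h : DD z K (K r z) then
      ((h1 _ h).some ⟨r, by simp⟩ : (univ.filter (fun i => cl i = K r z) : Finset (Fin a))).1
        else r) = ((h1 c hc).some ⟨r, by simp [hr]⟩).1 := by
    intro r hr
    subst hr
    rw [dif_pos hc]
  refine ⟨?_, ?_, ?_⟩
  · intro r hr
    have hr' : K r z = c := by simpa using hr
    simp only [key r hr']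
    exact ((h1 c hc).some ⟨r, by simp [hr']⟩).2
  · intro r hr r' hr' he
    have e1 : K r z = c := by simpa using hr
    have e2 : K r' z = c := by simpa using hr'
    simp only [key r e1, key r' e2] at he
    have := (h1 c hc).some.injective (Subtype.ext he)
    exact congrArg Subtype.val this
  · intro i hi
    obtain ⟨⟨r, hr⟩, hre⟩ := (h1 c hc).some.surjective ⟨i, hi⟩
    have e1 : K r z = c := by simpa using hr
    refine ⟨r, hr, ?_⟩
    simp only [key r e1, hre]

end Count


section Row

variable {A : Type} [CommRing A] {a q J : ℕ}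

def gg (f : Fin a → Fin J → A) (c : Fin a) : Option (Fin J) → A
  | none => 0
  | some j => f c j

/-- Rows of the state `o`. -/
def row (P : Fin a → A) (f : Fin a → Fin J → A) (ρ : Fin a → Fin a) (z : Fin q)
    (K : Fin a → Fin q → Fin a) (o : St a J) (r : Fin a) : A :=
  if o (K r z) = none then P (ρ r) else ∏ l, gg f (K r l) (o (K r l))

variable (P : Fin a → A) (f : Fin a → Fin J → A) (ρ : Fin a → Fin a) (z : Fin q)
  (K : Fin a → Fin q → Fin a)

theorem row_some (j : Fin a → Fin J) (r : Fin a) :
    row P f ρ z K (fun c => some (j c)) r = ∏ l, f (K r l) (j (K r l)) := by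
  simp [row, gg]

theorem row_ne {c : Fin a} (hD : DD z K c) (o : St a J) (x : Option (Fin J)) {r : Fin a}
    (hr : K r z ≠ c) : row P f ρ z K (Function.update o c x) r = row P f ρ z K o r := by
  unfold row
  rw [Function.update_of_ne hr]
  split_ifs with h
  · rfl
  · refine Finset.prod_congr rfl fun l _ => ?_
    have h2 : K r l ≠ c := by
      intro h
      have := hD r ⟨l, h⟩ l
      exact hr (this ▸ h)
    rw [Function.update_of_ne h2]

theorem row_eq_some {c : Fin a} (hD : DD z K c) (o : St a J) (j : Fin J) {r : Fin a}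
    (hr : K r z = c) : row P f ρ z K (Function.update o c (some j)) r = f c j ^ q := by
  have h : ∀ l, K r l = c := fun l => (hD r ⟨z, hr⟩ l).trans hr
  unfold row
  rw [hr, Function.update_self, if_neg (by simp)]
  have : ∀ l : Fin q, gg f (K r l) (Function.update o c (some j) (K r l)) = f c j := by
    intro l
    rw [h l, Function.update_self]
    rfl
  rw [Finset.prod_congr rfl fun l _ => this l, Finset.prod_const, card_univ, Fintype.card_fin]

theorem row_eq_none {c : Fin a} (o : St a J) {r : Fin a}
    (hr : K r z = c) : row P f ρ z K (Function.update o c none) r = P (ρ r) := by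
  unfold row
  rw [hr, Function.update_self, if_pos rfl]

variable [Algebra ℂ A]

theorem row_hQ (F : MultilinearMap ℂ (fun _ : Fin a => A) ℂ) (w : Fin a → Fin J → ℂ)
    (cl : Fin a → Fin a)
    (hrep : ∀ (c : Fin a) (R : Finset (Fin a)) (ρ : Fin a → Fin a),
      Set.BijOn ρ R (univ.filter (fun i => cl i = c) : Finset (Fin a)) → ∀ h : Fin a → A,
      ∑ j, w c j * F (fun r => if r ∈ R then f c j ^ q else h r) =
        F (fun r => if r ∈ R then P (ρ r) else h r))
    (hρ : ∀ c, DD z K c →
      Set.BijOn ρ (univ.filter (fun r => K r z = c) : Finset (Fin a))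
        (univ.filter (fun i => cl i = c) : Finset (Fin a)))
    (c : Fin a) (hD : DD z K c) (o : St a J) :
    ∑ j, w c j * F (row P f ρ z K (Function.update o c (some j))) =
      F (row P f ρ z K (Function.update o c none)) := by
  have e1 : ∀ j, row P f ρ z K (Function.update o c (some j)) =
      fun r => if r ∈ (univ.filter (fun r => K r z = c) : Finset (Fin a)) then f c j ^ q
        else row P f ρ z K o r := by
    intro j
    funext r
    by_cases hr : K r z = c
    · rw [if_pos (by simp [hr]), row_eq_some P f ρ z K hD o j hr]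
    · rw [if_neg (by simp [hr]), row_ne P f ρ z K hD o _ hr]
  have e2 : row P f ρ z K (Function.update o c none) =
      fun r => if r ∈ (univ.filter (fun r => K r z = c) : Finset (Fin a)) then P (ρ r)
        else row P f ρ z K o r := by
    funext r
    by_cases hr : K r z = c
    · rw [if_pos (by simp [hr]), row_eq_none P f ρ z K o hr]
    · rw [if_neg (by simp [hr]), row_ne P f ρ z K hD o _ hr]
  rw [e2, ← hrep c _ ρ (hρ c hD)]
  exact Finset.sum_congr rfl fun j _ => by rw [e1 j]

open Classical in
/-- The cost of a row. -/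
noncomputable def cost (ε Ω : ℝ) (r : Fin a) : ℝ :=
  if ∃ l l', K r l ≠ K r l' then ε else if DD z K (K r z) then 1 else Ω

theorem row_bd (F : MultilinearMap ℂ (fun _ : Fin a => A) ℂ) {ε Ω μ : ℝ} (hε : 0 ≤ ε)
    (hΩ : 1 ≤ Ω) (Ct : A → ℝ → Prop) (hP : ∀ i, Ct (P i) 1) (hfC : ∀ c j, Ct (f c j ^ q) Ω)
    (hmix : ∀ (k : Fin q → Fin a) (j : Fin a → Fin J), (∃ l l', k l ≠ k l') →
      Ct (∏ l, f (k l) (j (k l))) ε)
    (hCF : ∀ (h : Fin a → A) (c : Fin a → ℝ), (∀ r, 0 ≤ c r) → (∀ r, Ct (h r) (c r)) →
      ‖F h‖ ≤ (∏ r, c r) * μ)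
    (o : St a J) (ho : ∀ c, (DD z K c → o c = none) ∧ (¬ DD z K c → o c ≠ none)) :
    ‖F (row P f ρ z K o)‖ ≤ (∏ r, cost z K ε Ω r) * μ := by
  classical
  refine hCF _ _ (fun r => ?_) fun r => ?_
  · unfold cost
    split_ifs
    · exact hε
    · exact zero_le_one
    · linarith
  · unfold cost
    by_cases h1 : ∃ l l', K r l ≠ K r l'
    · rw [if_pos h1]
      have h2 : ∀ l, ¬ DD z K (K r l) := by
        intro l hD
        obtain ⟨m, m', hm⟩ := h1
        have := hD r ⟨l, rfl⟩
        exact hm ((this m).trans (this m').symm)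
      have h3 : ∀ l, o (K r l) ≠ none := fun l => (ho _).2 (h2 l)
      obtain ⟨j0, hj0⟩ := Option.ne_none_iff_exists'.1 (h3 z)
      have h4 := hmix (K r) (fun c => (o c).getD j0) h1
      convert h4 using 1
      unfold row
      rw [if_neg (h3 z)]
      refine Finset.prod_congr rfl fun l _ => ?_
      obtain ⟨j, hj⟩ := Option.ne_none_iff_exists'.1 (h3 l)
      rw [hj]
      rfl
    · rw [if_neg h1]
      push Not at h1
      by_cases hD : DD z K (K r z)
      · rw [if_pos hD]
        unfold row
        rw [if_pos ((ho _).1 hD)]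
        exact hP _
      · rw [if_neg hD]
        have h3 := (ho _).2 hD
        obtain ⟨j, hj⟩ := Option.ne_none_iff_exists'.1 h3
        unfold row
        rw [if_neg h3]
        have : ∀ l : Fin q, gg f (K r l) (o (K r l)) = f (K r z) j := by
          intro l
          rw [h1 l z, hj]
          rfl
        rw [Finset.prod_congr rfl fun l _ => this l, Finset.prod_const, card_univ,
          Fintype.card_fin]
        exact hfC _ _

end Row

section Count2

variable {a q : ℕ}

theorem prod_cost (z : Fin q) (K : Fin a → Fin q → Fin a) {ε Ω B : ℝ} (hε : 0 ≤ ε)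
    (hΩ : 1 ≤ Ω) (hB : 1 ≤ B) (S : ℕ) (m : Fin a → ℕ) (hm : ∀ c, m c ≤ S)
    (hK : ∀ c, (univ.filter (fun p : Fin a × Fin q => K p.1 p.2 = c)).card = q * m c)
    [DecidablePred (fun c => DD z K c)] :
    B ^ (univ.filter (fun c => ¬ DD z K c)).card * ∏ r, cost z K ε Ω r ≤
      (ε * (B * Ω ^ S) ^ q) ^ (univ.filter (fun r => ∃ l l', K r l ≠ K r l')).card := by
  classical
  set n1 := (univ.filter (fun r => ∃ l l', K r l ≠ K r l')).card with hn1
  set R2 : Finset (Fin a) := univ.filter (fun r => (¬ ∃ l l', K r l ≠ K r l') ∧ ¬ DD z K (K r z))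
    with hR2
  have hI : (univ.filter (fun c => ¬ DD z K c)).card ≤ q * n1 := by
    have h1 : (univ.filter (fun c => ¬ DD z K c)) ⊆
        ((univ.filter (fun r => ∃ l l', K r l ≠ K r l')) ×ˢ (univ : Finset (Fin q))).image
          (fun p => K p.1 p.2) := by
      intro c hc
      simp only [mem_filter, mem_univ, true_and] at hc
      unfold DD at hc
      push Not at hc
      obtain ⟨r, ⟨l, hl⟩, l', hl'⟩ := hc
      refine mem_image.2 ⟨(r, l), ?_, hl⟩
      simp only [mem_product, mem_filter, mem_univ, true_and, and_true]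
      exact ⟨l', z, hl'⟩
    refine (card_le_card h1).trans (card_image_le.trans ?_)
    rw [card_product, card_univ, Fintype.card_fin, mul_comm]
  have hfib : R2.card ≤ S * (univ.filter (fun c => ¬ DD z K c)).card := by
    refine Finset.card_le_mul_card_image_of_maps_to (f := fun r => K r z) ?_ S ?_
    · intro r hr
      simp only [hR2, mem_filter, mem_univ, true_and] at hr ⊢
      exact hr.2
    · intro c _
      have h2 : (R2.filter (fun r => K r z = c)) ×ˢ (univ : Finset (Fin q)) ⊆
          univ.filter (fun p : Fin a × Fin q => K p.1 p.2 = c) := by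
        rintro ⟨r, l⟩ hp
        simp only [hR2, mem_product, mem_filter, mem_univ, true_and, and_true] at hp ⊢
        have := hp.1.1
        push Not at this
        rw [this l z]
        exact hp.2
      have h3 := card_le_card h2
      rw [card_product, card_univ, Fintype.card_fin, hK c, mul_comm q] at h3
      exact (Nat.le_of_mul_le_mul_right h3 z.pos).trans (hm c)
  have hprod : ∏ r, cost z K ε Ω r = ε ^ n1 * Ω ^ R2.card := by
    have h1 : ∀ r, cost z K ε Ω r = (if ∃ l l', K r l ≠ K r l' then ε else 1) *
        (if (¬ ∃ l l', K r l ≠ K r l') ∧ ¬ DD z K (K r z) then Ω else 1) := by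
      intro r
      unfold cost
      by_cases h1 : ∃ l l', K r l ≠ K r l'
      · rw [if_pos h1, if_pos h1, if_neg (fun h => h.1 h1), mul_one]
      · by_cases h2 : DD z K (K r z)
        · rw [if_neg h1, if_neg h1, if_pos h2, if_neg (fun h => h.2 h2), mul_one]
        · rw [if_neg h1, if_neg h1, if_neg h2, if_pos ⟨h1, h2⟩, one_mul]
    rw [Finset.prod_congr rfl fun r _ => h1 r, Finset.prod_mul_distrib, Finset.prod_ite,
      Finset.prod_ite, Finset.prod_const, Finset.prod_const_one, Finset.prod_const,
      Finset.prod_const_one, mul_one, mul_one]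
  rw [hprod]
  have hB1 : B ^ (univ.filter (fun c => ¬ DD z K c)).card ≤ B ^ (q * n1) :=
    pow_le_pow_right₀ hB hI
  have hO1 : Ω ^ R2.card ≤ Ω ^ (S * (q * n1)) :=
    pow_le_pow_right₀ hΩ (hfib.trans (Nat.mul_le_mul_left _ hI))
  have hΩ0 : 0 ≤ Ω := by linarith
  have hB0 : 0 ≤ B := by linarith
  calc B ^ (univ.filter (fun c => ¬ DD z K c)).card * (ε ^ n1 * Ω ^ R2.card)
      ≤ B ^ (q * n1) * (ε ^ n1 * Ω ^ (S * (q * n1))) := by gcongr
    _ = (ε * (B * Ω ^ S) ^ q) ^ n1 := by
        rw [mul_pow, ← pow_mul, mul_pow, ← pow_mul]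
        ring

end Count2


theorem TP_none {a J : ℕ} (w : Fin a → Fin J → ℂ) (D : Fin a → Prop) [DecidablePred D]
    (Φ : St a J → ℂ) (hD : ∀ c, D c) (l : List (Fin a)) :
    TP w D l Φ (fun _ => none) = Φ (fun _ => none) := by
  induction l with
  | nil => rfl
  | cons c l ih =>
    rw [TP, if_pos (hD c)]
    have : Function.update (fun _ => none : St a J) c none = fun _ => none :=
      Function.update_eq_self c _
    rw [this, ih]

theorem rowRES (h1 : RowRES1) (h3 : RowRES3) : RowRES := by
  intro A _ _ a q S J F hq hS L hL cl hcl P w f B Ω ε μ hB hΩ hε hμ hf hw hrep Ct hP hfC hmix hCF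
  set z : Fin q := ⟨0, hq⟩ with hz
  set s : Fin a → ℕ := fun c => (univ.filter (fun i => cl i = c)).card with hs
  set KK : Finset (Fin a → Fin q → Fin a) := univ.filter (fun K => ∀ c,
      (univ.filter (fun p : Fin a × Fin q => K p.1 p.2 = c)).card = q * s c) with hKK
  set ω : ℝ := ε * (B * Ω ^ S) ^ q with hω
  have hB0 : 0 ≤ B := by linarith
  have hΩ0 : 0 ≤ Ω := by linarith
  have hω0 : 0 ≤ ω := by positivity
  have hρ : ∀ K : Fin a → Fin q → Fin a, ∃ ρ : Fin a → Fin a, K ∈ KK → ∀ c, DD z K c →
      Set.BijOn ρ (univ.filter (fun r => K r z = c) : Finset (Fin a))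
        (univ.filter (fun i => cl i = c) : Finset (Fin a)) := by
    intro K
    by_cases hK : K ∈ KK
    · obtain ⟨ρ, h⟩ := exists_rho z K cl (fun c => (mem_filter.1 hK).2 c)
      exact ⟨ρ, fun _ => h⟩
    · exact ⟨id, fun h => absurd h hK⟩
  choose ρ hρ using hρ
  let Φ : (Fin a → Fin q → Fin a) → St a J → ℂ := fun K o => F (row P f (ρ K) z K o)
  let o0 : St a J := fun _ => none
  have hsum : ∑ K ∈ KK, TO w (List.finRange a) (Φ K) o0 = 0 := by
    rw [← TO_sum]
    refine TO_zero w _ _ _ fun o' h _ => ?_
    have hex : ∀ c, ∃ j, o' c = some j :=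
      fun c => Option.ne_none_iff_exists'.1 (h c (List.mem_finRange c))
    choose j hj using hex
    have e : o' = fun c => some (j c) := funext hj
    rw [e]
    have := h1 A a q F L hL (fun c => f c (j c)) (fun c => hf _ _) (fun c => q * s c)
    refine Eq.trans (Finset.sum_congr rfl fun K _ => ?_) this
    exact congrArg F (funext fun r => row_some P f (ρ K) z K j r)
  -- constant `K`
  have hconst : ∀ K ∈ KK, (¬ ∃ r l l', K r l ≠ K r l') →
      TO w (List.finRange a) (Φ K) o0 = F P := by
    classical
    intro K hK hnc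
    have hD : ∀ c, DD z K c := fun c r _ l => by
      by_contra h
      exact hnc ⟨r, l, z, h⟩
    rw [TO_eq_TP w (DD z K) (Φ K) (fun c hc o => row_hQ P f (ρ K) z K F w cl hrep
      (hρ K hK) c hc o) _ (List.nodup_finRange a)]
    have e1 : TP w (DD z K) (List.finRange a) (Φ K) o0 = Φ K o0 := TP_none w _ _ hD _
    rw [e1]
    have hinj : Function.Injective (ρ K) := by
      intro r r' he
      have m1 := (hρ K hK (K r z) (hD _)).mapsTo
        (show r ∈ ((univ.filter (fun r' => K r' z = K r z) : Finset (Fin a)) : Set (Fin a)) by simp)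
      have m2 := (hρ K hK (K r' z) (hD _)).mapsTo
        (show r' ∈ ((univ.filter (fun r => K r z = K r' z) : Finset (Fin a)) : Set (Fin a)) by simp)
      have m1' : cl (ρ K r) = K r z := by simpa using m1
      have m2' : cl (ρ K r') = K r' z := by simpa using m2
      have m3 : K r' z = K r z := by rw [← m1', ← m2', he]
      exact (hρ K hK (K r z) (hD _)).injOn (by simp) (by simp [m3]) he
    have hbij := Finite.injective_iff_bijective.1 hinj
    have := hS (Equiv.ofBijective (ρ K) hbij) P
    rw [← this]
    refine congrArg F (funext fun r => ?_)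
    simp [row, o0]
  -- nonconstant `K`
  have hnon : ∀ K ∈ KK, ‖TO w (List.finRange a) (Φ K) o0‖ ≤
      ω ^ (univ.filter (fun r => ∃ l l', K r l ≠ K r l')).card * μ := by
    classical
    intro K hK
    rw [TO_eq_TP w (DD z K) (Φ K) (fun c hc o => row_hQ P f (ρ K) z K F w cl hrep
      (hρ K hK) c hc o) _ (List.nodup_finRange a)]
    have hc0 : 0 ≤ ∏ r, cost z K ε Ω r := by
      refine Finset.prod_nonneg fun r _ => ?_
      unfold cost
      split_ifs
      · exact hε
      · exact zero_le_one
      · exact hΩ0
    have hb := TP_bound w (DD z K) (Φ K) hB0 (mul_nonneg hc0 hμ) hw (List.finRange a) o0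
      (fun o' h _ => row_bd P f (ρ K) z K F hε hΩ Ct hP hfC hmix hCF o'
        (fun c => h c (List.mem_finRange c)))
    have hlen : ((List.finRange a).filter (fun c => ¬ DD z K c)).length =
        (univ.filter (fun c => ¬ DD z K c)).card := by
      rw [← List.toFinset_card_of_nodup ((List.nodup_finRange a).filter _)]
      congr 1
      ext c
      simp
    rw [hlen] at hb
    have hp := prod_cost z K hε hΩ hB S s hcl (fun c => (mem_filter.1 hK).2 c)
    calc _ ≤ _ := hb
      _ = (B ^ (univ.filter (fun c => ¬ DD z K c)).card * ∏ r, cost z K ε Ω r) * μ := by ring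
      _ ≤ _ := mul_le_mul_of_nonneg_right hp hμ
  have hssum : ∑ c, s c = a := by
    have := Finset.card_eq_sum_card_fiberwise (s := (univ : Finset (Fin a)))
      (t := (univ : Finset (Fin a))) (f := cl) (fun _ _ => by simp)
    rw [card_univ, Fintype.card_fin] at this
    exact this.symm
  have h3' := h3 a q ω hq hω0 s hssum
  set Np : ℕ := ((univ : Finset (Fin a → Fin a)).filter (fun p => ∀ c,
      (univ.filter (fun r => p r = c)).card = s c)).card with hNp
  set NC : Finset (Fin a → Fin q → Fin a) := (univ : Finset (Fin a → Fin q → Fin a)).filter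
    (fun K => (∀ c, (univ.filter (fun p : Fin a × Fin q => K p.1 p.2 = c)).card = q * s c) ∧
      ∃ r l l', K r l ≠ K r l') with hNC
  have hNC' : NC = KK.filter (fun K => ∃ r l l', K r l ≠ K r l') := by
    rw [hNC, hKK, Finset.filter_filter]
  set CC : Finset (Fin a → Fin q → Fin a) := KK.filter (fun K => ¬ ∃ r l l', K r l ≠ K r l')
    with hCC
  have hNpos : 0 < Np := by
    refine card_pos.2 ⟨cl, ?_⟩
    simp [hs]
  have hNle : Np ≤ CC.card := by
    refine Finset.card_le_card_of_injOn (fun p => fun r (_ : Fin q) => p r) ?_ ?_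
    · intro p hp
      have hp' : ∀ c, (univ.filter (fun r => p r = c)).card = s c := by simpa using hp
      have : (fun r (_ : Fin q) => p r) ∈ CC := by
        rw [hCC, hKK, mem_filter, mem_filter]
        refine ⟨⟨mem_univ _, fun c => ?_⟩, fun ⟨r, l, l', h⟩ => h rfl⟩
        have e : (univ.filter (fun x : Fin a × Fin q => p x.1 = c)) =
            (univ.filter (fun r => p r = c)) ×ˢ (univ : Finset (Fin q)) := by
          ext ⟨r, l⟩
          simp
        rw [e, card_product, card_univ, Fintype.card_fin, hp' c, mul_comm]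
      exact this
    · intro p _ p' _ h
      funext r
      exact congrFun (congrFun h r) z
  have hsplit : (CC.card : ℂ) * F P = - ∑ K ∈ NC, TO w (List.finRange a) (Φ K) o0 := by
    have := Finset.sum_filter_add_sum_filter_not KK (fun K => ∃ r l l', K r l ≠ K r l')
      (fun K => TO w (List.finRange a) (Φ K) o0)
    rw [hsum, ← hNC', ← hCC] at this
    have e : ∑ K ∈ CC, TO w (List.finRange a) (Φ K) o0 = (CC.card : ℂ) * F P := by
      rw [Finset.sum_congr rfl fun K hK => hconst K (mem_filter.1 hK).1 (mem_filter.1 hK).2,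
        Finset.sum_const, nsmul_eq_mul]
    rw [e] at this
    linear_combination this
  have hbound : (CC.card : ℝ) * ‖F P‖ ≤ Np * ((1 + (a : ℝ) ^ q * ω) ^ a - 1) * μ := by
    have e : (CC.card : ℝ) * ‖F P‖ = ‖(CC.card : ℂ) * F P‖ := by
      rw [norm_mul]
      simp
    rw [e, hsplit, norm_neg]
    calc ‖∑ K ∈ NC, TO w (List.finRange a) (Φ K) o0‖
        ≤ ∑ K ∈ NC, ω ^ (univ.filter (fun r => ∃ l l', K r l ≠ K r l')).card * μ :=
          (norm_sum_le _ _).trans (Finset.sum_le_sum fun K hK => hnon K
            (mem_filter.1 (hNC' ▸ hK)).1)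
      _ = (∑ K ∈ NC, ω ^ (univ.filter (fun r => ∃ l l', K r l ≠ K r l')).card) * μ := by
          rw [Finset.sum_mul]
      _ ≤ _ := mul_le_mul_of_nonneg_right h3' hμ
  have h5 : (Np : ℝ) * ‖F P‖ ≤ Np * (μ * ((1 + (a : ℝ) ^ q * ω) ^ a - 1)) := by
    have : (Np : ℝ) ≤ CC.card := by exact_mod_cast hNle
    calc (Np : ℝ) * ‖F P‖ ≤ CC.card * ‖F P‖ := mul_le_mul_of_nonneg_right this (norm_nonneg _)
      _ ≤ _ := hbound
      _ = _ := by ring
  exact le_of_mul_le_mul_left h5 (by exact_mod_cast hNpos)

end Vale.Agent.P181.H225
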